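import Vale.Agent.P331.F.Rows

/-!
# Row L1 of the constant ratio from the rows Tr, J, C
-/

set_option autoImplicit false
set_option linter.all false

namespace Vale.Agent.P331.H133

open Finset Vale.Agent.P331 Vale.Agent.P331.H489 Vale.Agent.P331.H250 Vale.Agent.P331.F
open scoped Classical

section

variable {E : Type} [Fintype E]

theorem ind_nonneg (P : Prop) : 0 ≤ F.ind P := by
  unfold F.ind
  split_ifs <;> norm_num

theorem ind_le {P Q : Prop} (h : P → Q) : F.ind P ≤ F.ind Q := by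
  unfold F.ind
  by_cases hP : P
  · rw [if_pos hP, if_pos (h hP)]
  · rw [if_neg hP]
    split_ifs <;> norm_num

theorem ind_le_add {P Q R : Prop} (h : P → Q ∨ R) : F.ind P ≤ F.ind Q + F.ind R := by
  have hQ := ind_nonneg Q
  have hR := ind_nonneg R
  by_cases hP : P
  · have e : F.ind P = 1 := if_pos hP
    rcases h hP with h1 | h1
    · have e1 : F.ind Q = 1 := if_pos h1
      linarith
    · have e1 : F.ind R = 1 := if_pos h1
      linarith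
  · have e : F.ind P = 0 := if_neg hP
    linarith

theorem Th_mono {t : ℝ} (h0 : 0 ≤ t) (h1 : t ≤ 1) (S : Finset E) {f g : Finset E → ℝ}
    (h : ∀ G, G ⊆ S → f G ≤ g G) : Th t S f ≤ Th t S g :=
  TH_mono (fun _ => h0) (fun _ => h1) S h

theorem Th_nonneg {t : ℝ} (h0 : 0 ≤ t) (h1 : t ≤ 1) (S : Finset E) {f : Finset E → ℝ}
    (h : ∀ G, G ⊆ S → 0 ≤ f G) : 0 ≤ Th t S f :=
  TH_nonneg (fun _ => h0) (fun _ => h1) S h

theorem Th_add (t : ℝ) (S : Finset E) (f g : Finset E → ℝ) :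
    Th t S (fun G => f G + g G) = Th t S f + Th t S g := TH_add _ _ _ _

theorem Th_markov {t c : ℝ} (h0 : 0 ≤ t) (h1 : t ≤ 1) (S : Finset E) {P : Finset E → Prop}
    {f : Finset E → ℝ} (hf : ∀ G, G ⊆ S → 0 ≤ f G) (hP : ∀ G, G ⊆ S → P G → c ≤ f G) :
    c * Th t S (fun G => F.ind (P G)) ≤ Th t S f := by
  have e : c * Th t S (fun G => F.ind (P G)) = Th t S (fun G => c * F.ind (P G)) :=
    (TH_mul _ _ _ _).symm
  rw [e]
  refine Th_mono h0 h1 S fun G hG => ?_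
  by_cases h : P G
  · have e1 : F.ind (P G) = 1 := if_pos h
    rw [e1, mul_one]
    exact hP G hG h
  · have e1 : F.ind (P G) = 0 := if_neg h
    rw [e1, mul_zero]
    exact hf G hG

theorem Fam_mono {g₁ t₁ a δ : ℝ} {κ : ℕ} {D : Finset E → Prop} {R A A' : Finset E}
    (h0 : 0 ≤ g₁) (h1 : g₁ ≤ 1) (hA : A ⊆ A') (h : Fam g₁ t₁ a κ δ D R A) :
    Fam g₁ t₁ a κ δ D R A' := by
  refine le_trans (Th_mono h0 h1 R fun G _ => ind_le fun hno => ?_) h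
  rintro ⟨Y, hY, hY2⟩
  exact hno ⟨Y, hY.trans hA, hY2⟩

theorem num1 {x : ℝ} (hx : 16 ≤ x) :
    ((x ^ 200)⁻¹ + 1 / x ^ 200) / (x ^ 21)⁻¹ ≤ (x ^ 163)⁻¹ / 2 := by
  have hx0 : 0 < x := by linarith
  have e1 : ((x ^ 200)⁻¹ + 1 / x ^ 200) / (x ^ 21)⁻¹ = 2 * x ^ 21 / x ^ 200 := by
    field_simp
    norm_num
  have e2 : (x ^ 163)⁻¹ / 2 = 1 / (2 * x ^ 163) := by
    field_simp
  rw [e1, e2, div_le_div_iff₀ (by positivity) (by positivity)]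
  have h1 : (4 : ℝ) ≤ x ^ 16 := by
    calc (4 : ℝ) ≤ 16 ^ 16 := by norm_num
      _ ≤ x ^ 16 := by gcongr
  have h2 : x ^ 184 * 4 ≤ x ^ 184 * x ^ 16 := mul_le_mul_of_nonneg_left h1 (by positivity)
  calc 2 * x ^ 21 * (2 * x ^ 163) = x ^ 184 * 4 := by ring
    _ ≤ x ^ 184 * x ^ 16 := h2
    _ = 1 * x ^ 200 := by ring

theorem num2 {x P U₁ U₂ : ℝ} (hx : 16 ≤ x) (h1 : U₁ ≤ (x ^ 24000)⁻¹)
    (h2 : U₂ ≤ (x ^ 24000)⁻¹) (h : (x ^ 163)⁻¹ / 2 * P ≤ U₁ + U₂) :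
    P ≤ ((x ^ 200) ^ 119)⁻¹ := by
  have hx0 : 0 < x := by linarith
  have h3 : (4 : ℝ) ≤ x ^ 37 := by
    calc (4 : ℝ) ≤ 16 ^ 37 := by norm_num
      _ ≤ x ^ 37 := by gcongr
  have h4 : P ≤ 4 * x ^ 163 * (x ^ 24000)⁻¹ := by
    have h5 : (x ^ 163)⁻¹ / 2 * P ≤ 2 * (x ^ 24000)⁻¹ := by linarith
    have h6 : P = 2 * x ^ 163 * ((x ^ 163)⁻¹ / 2 * P) := by
      have : x ^ 163 * (x ^ 163)⁻¹ = 1 := mul_inv_cancel₀ (by positivity)
      calc P = (x ^ 163 * (x ^ 163)⁻¹) * P := by rw [this, one_mul]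
        _ = _ := by ring
    rw [h6]
    calc 2 * x ^ 163 * ((x ^ 163)⁻¹ / 2 * P) ≤ 2 * x ^ 163 * (2 * (x ^ 24000)⁻¹) :=
          mul_le_mul_of_nonneg_left h5 (by positivity)
      _ = _ := by ring
  refine h4.trans ?_
  rw [← pow_mul, ← div_eq_mul_inv, ← one_div, div_le_div_iff₀ (by positivity) (by positivity)]
  have e1 : x ^ 24000 = x ^ 163 * x ^ (200 * 119) * x ^ 37 := by
    rw [← pow_add, ← pow_add]
  rw [e1]
  have h7 : 0 ≤ x ^ 163 * x ^ (200 * 119) := by positivity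
  calc 4 * x ^ 163 * x ^ (200 * 119) = x ^ 163 * x ^ (200 * 119) * 4 := by
        rw [mul_assoc, mul_comm]
    _ ≤ x ^ 163 * x ^ (200 * 119) * x ^ 37 := mul_le_mul_of_nonneg_left h3 h7
    _ = 1 * (x ^ 163 * x ^ (200 * 119) * x ^ 37) := (one_mul _).symm

/-- the bound of Row C at the level `j` -/
theorem num3 {x L : ℝ} (hx : 16 ≤ x) (hL0 : 0 ≤ L) (hL : L ≤ x ^ 200) :
    (L * (x ^ 200 * ((x ^ 200) ^ 20)⁻¹)) ^ 7 / ((x ^ 21)⁻¹) ^ 17 ≤ (x ^ 24000)⁻¹ := by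
  have hx0 : 0 < x := by linarith
  have h1 : L * (x ^ 200 * ((x ^ 200) ^ 20)⁻¹) ≤ (x ^ 3600)⁻¹ := by
    have e1 : x ^ 200 * (x ^ 200 * ((x ^ 200) ^ 20)⁻¹) = (x ^ 3600)⁻¹ := by
      have h2 : (x ^ 200) ^ 20 = x ^ 400 * x ^ 3600 := by
        rw [← pow_mul, ← pow_add]
      rw [h2, mul_inv, ← mul_assoc, ← mul_assoc, ← pow_add]
      rw [mul_inv_cancel₀ (by positivity), one_mul]
    rw [← e1]
    exact mul_le_mul_of_nonneg_right hL (by positivity)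
  have h2 : (L * (x ^ 200 * ((x ^ 200) ^ 20)⁻¹)) ^ 7 ≤ ((x ^ 3600)⁻¹) ^ 7 := by
    apply pow_le_pow_left₀ _ h1
    positivity
  have e3 : ((x ^ 21)⁻¹) ^ 17 = (x ^ 357)⁻¹ := by
    rw [inv_pow, ← pow_mul]
  have e4 : ((x ^ 3600)⁻¹) ^ 7 = (x ^ 25200)⁻¹ := by
    rw [inv_pow, ← pow_mul]
  rw [e3, div_eq_mul_inv, inv_inv]
  rw [e4] at h2
  calc (L * (x ^ 200 * ((x ^ 200) ^ 20)⁻¹)) ^ 7 * x ^ 357 ≤ (x ^ 25200)⁻¹ * x ^ 357 :=
        mul_le_mul_of_nonneg_right h2 (by positivity)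
    _ ≤ (x ^ 24000)⁻¹ := by
        have e5 : x ^ 25200 = x ^ 24000 * x ^ 843 * x ^ 357 := by
          rw [← pow_add, ← pow_add]
        have h6 : (1 : ℝ) ≤ x ^ 843 := one_le_pow₀ (by linarith)
        rw [e5, mul_inv, mul_assoc, inv_mul_cancel₀ (by positivity), mul_one]
        apply inv_anti₀ (by positivity)
        exact le_mul_of_one_le_right (by positivity) h6

/-- the Markov step for one test set -/
theorem one_V {g n a T : ℝ} {l l' : Lv} {x : ℝ} {D : Finset E → Prop}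
    {V X : Finset E} (hTr : RowTr) (hX : X ⊆ V) (hg0 : 0 < g) (hg1 : g ≤ 1 / 4)
    (hn0 : 0 ≤ n) (hn1 : n ≤ 1 / 4) (ha : 0 < a) (hT : 0 < T) (hδ : 0 < l.δ)
    (h3a : ∀ c : ℕ, c ≤ l'.κ → 3 * a ≤ l'.δ / (c + 1))
    (hnum : (l.τ + 1 / T) / a ≤ x / 2)
    (h1 : ff g (n / (1 - g)) l D (univ \ V) X ≤ l.τ)
    (h2 : x ≤ Th g (univ \ V) (fun G =>
        F.ind (¬ ∃ Y ⊆ X, good (n / (1 - g)) l' D (univ \ V) G Y))) :
    x / 2 ≤ Th g (univ \ V) (fun G => F.ind (∃ K ⊆ V,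
      Fam (g / (1 - g)) (n / (1 - 2 * g)) a l.κ (T * l.δ) D ((univ \ V) \ G) K ∧
      ∀ U' ⊆ K, U'.card ≤ l'.κ → ¬ Th (n / (1 - g)) ((univ \ V) \ G)
        (fun N => F.ind (¬ D (U' ∪ G ∪ N))) ≤ 3 * a)) := by
  have hg0' : 0 ≤ g := hg0.le
  have hg1' : g ≤ 1 := by linarith
  have ht0 : 0 ≤ n / (1 - g) := div_nonneg hn0 (by linarith)
  have ht1 : n / (1 - g) ≤ 1 := by
    rw [div_le_one (by linarith)]
    linarith
  have h3 : Th g (univ \ V) (fun G => F.ind (¬ ∃ Y ⊆ X, Y.card ≤ l.κ ∧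
      Th (n / (1 - g)) ((univ \ V) \ G) (fun N => F.ind (¬ D (Y ∪ G ∪ N))) ≤ l.δ)) ≤ l.τ := by
    refine le_trans (Th_mono hg0' hg1' _ fun G _ => ind_le fun hno => ?_) h1
    rintro ⟨Y, hY, hYc, hYd⟩
    refine hno ⟨Y, hY, hYc, hYd.trans ?_⟩
    apply div_le_self hδ.le
    have : (0 : ℝ) ≤ Y.card := Nat.cast_nonneg _
    linarith
  have h4 := hTr E D (univ \ V) X g n l.κ l.δ l.τ a T hg0 hg1 hn0 hn1 hδ ha hT h3
  have h5 : Th g (univ \ V) (fun G =>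
        F.ind (¬ ∃ Y ⊆ X, good (n / (1 - g)) l' D (univ \ V) G Y)) ≤
      Th g (univ \ V) (fun G =>
        F.ind (¬ Fam (g / (1 - g)) (n / (1 - 2 * g)) a l.κ (T * l.δ) D ((univ \ V) \ G) X) +
        F.ind (∃ K ⊆ V,
      Fam (g / (1 - g)) (n / (1 - 2 * g)) a l.κ (T * l.δ) D ((univ \ V) \ G) K ∧
      ∀ U' ⊆ K, U'.card ≤ l'.κ → ¬ Th (n / (1 - g)) ((univ \ V) \ G)
        (fun N => F.ind (¬ D (U' ∪ G ∪ N))) ≤ 3 * a)) := by
    refine Th_mono hg0' hg1' _ fun G _ => ind_le_add fun hno => ?_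
    by_cases hF : Fam (g / (1 - g)) (n / (1 - 2 * g)) a l.κ (T * l.δ) D ((univ \ V) \ G) X
    · refine Or.inr ⟨X, hX, hF, fun U' hU' hc hle => hno ⟨U', hU', hc, hle.trans ?_⟩⟩
      exact h3a U'.card hc
    · exact Or.inl hF
  rw [Th_add] at h5
  linarith

end

theorem xx_succ (B i : ℕ) : ((xx B (i + 1) : ℕ) : ℝ) = ((xx B i : ℕ) : ℝ) ^ 200 := by
  unfold xx
  push_cast
  rw [pow_succ, pow_mul]

theorem xx_ge {B : ℕ} (hB : 16 ≤ B) (i : ℕ) : (16 : ℝ) ≤ (xx B i : ℕ) := by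
  unfold xx
  push_cast
  have hB' : (16 : ℝ) ≤ B := by exact_mod_cast hB
  exact hB'.trans (le_self_pow₀ (by linarith) (by positivity))

/-- **Row L1** -/
theorem rowL1 (hTr : RowTr) (hJ : RowJ) (hCr : RowC) : RowL1 := by
  intro p g n lam B hC E _ D hD j hj
  obtain ⟨i, rfl⟩ : ∃ i, j = i + 1 := ⟨j - 1, by omega⟩
  have e0 : i + 1 - 1 = i := by omega
  rw [e0]
  have hp0 := hC.p0
  have hp1 := hC.p1
  have hg0 := hC.g0
  have hgn := hC.gn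
  have hn0 := hC.n0
  have hn1 := hC.n1
  set x : ℝ := ((xx B i : ℕ) : ℝ) with hx
  have hx16 : 16 ≤ x := xx_ge hC.B16 i
  have hx0 : 0 < x := by linarith
  have hy : ((xx B (i + 1) : ℕ) : ℝ) = x ^ 200 := xx_succ B i
  have hxB : x = (B : ℝ) ^ 200 ^ i := by
    rw [hx]
    unfold xx
    push_cast
    rfl
  have hB16 : (16 : ℝ) ≤ B := by exact_mod_cast hC.B16
  have hB0 : (0 : ℝ) < B := by linarith
  have hBl : lam ≤ (B : ℝ) := hC.lamB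
  set a : ℝ := (x ^ 21)⁻¹ with ha
  have ha0 : 0 < a := by rw [ha]; positivity
  have hδ : (lev B (i + 1)).δ = ((x ^ 200) ^ 20)⁻¹ := by
    show (((xx B (i + 1) : ℕ) : ℝ) ^ 20)⁻¹ = _
    rw [hy]
  have hδ' : (lev B i).δ = (x ^ 20)⁻¹ := rfl
  have hτ : (lev B (i + 1)).τ = (x ^ 200)⁻¹ := by
    show (((xx B (i + 1) : ℕ) : ℝ))⁻¹ = _
    rw [hy]
  -- the rates
  have hr0 : 0 < (1 - p) * g := mul_pos (by linarith) hg0
  have hr1 : (1 - p) * g < 1 := by nlinarith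
  have hlam0 : (B : ℝ) ^ 24000 ≤ (1 - p) * g / p := hC.lam0
  have hpg : p ≤ (1 - p) * g := by
    have h1 : (1 : ℝ) ≤ (1 - p) * g / p := le_trans (one_le_pow₀ (by linarith)) hlam0
    rwa [one_le_div hp0] at h1
  -- J
  have hJ1 := hJ E (fun R A => Fam (g / (1 - g)) (n / (1 - 2 * g)) a (lev B (i + 1)).κ
      (x ^ 200 * (lev B (i + 1)).δ) D R A)
    (fun R X => Th (n / (1 - g)) R (fun N => F.ind (¬ D (X ∪ N))) ≤ 3 * a)
    (fun R A A' hAA' h => Fam_mono (div_nonneg hg0.le (by linarith))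
      (by rw [div_le_one (by linarith)]; linarith) hAA' h) p g (lev B i).κ hp0 (by linarith) hg0
    (by linarith) hpg
  have hC1 := hCr p g n lam hp0 hp1 hg0 hgn hn1 hC.lam1 hC.qj E D hD (lev B (i + 1)).κ
    (x ^ 200 * (lev B (i + 1)).δ) a (by rw [hδ]; positivity) ha0
  -- numbers
  have hU1 : (p / ((1 - p) * g)) ^ ((lev B i).κ + 1) ≤ (x ^ 24000)⁻¹ := by
    have h1 : p / ((1 - p) * g) ≤ ((B : ℝ) ^ 24000)⁻¹ := by
      rw [← inv_div]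
      exact inv_anti₀ (by positivity) hlam0
    have h2 : (lev B i).κ + 1 = 200 ^ i := by
      show 200 ^ i - 1 + 1 = 200 ^ i
      have : 0 < 200 ^ i := by positivity
      omega
    rw [h2]
    calc (p / ((1 - p) * g)) ^ 200 ^ i ≤ (((B : ℝ) ^ 24000)⁻¹) ^ 200 ^ i := by
          apply pow_le_pow_left₀ (by positivity) h1
      _ = (x ^ 24000)⁻¹ := by
          rw [inv_pow, ← pow_mul, hxB, ← pow_mul, mul_comm]
  have hL0 : 0 ≤ lam ^ (lev B (i + 1)).κ := pow_nonneg (by linarith [hC.lam1]) _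
  have hL1 : lam ^ (lev B (i + 1)).κ ≤ x ^ 200 := by
    have h1 : (lev B (i + 1)).κ ≤ 200 ^ (i + 1) := Nat.sub_le _ _
    calc lam ^ (lev B (i + 1)).κ ≤ (B : ℝ) ^ (lev B (i + 1)).κ :=
          pow_le_pow_left₀ (by linarith [hC.lam1]) hBl _
      _ ≤ (B : ℝ) ^ 200 ^ (i + 1) := pow_le_pow_right₀ (by linarith) h1
      _ = x ^ 200 := by rw [hxB, ← pow_mul, pow_succ]
  have hU2 : (lam ^ (lev B (i + 1)).κ * (x ^ 200 * (lev B (i + 1)).δ)) ^ 7 / a ^ 17 ≤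
      (x ^ 24000)⁻¹ := by
    rw [hδ]
    exact num3 hx16 hL0 hL1
  -- the Markov step
  have h3a : ∀ c : ℕ, c ≤ (lev B i).κ → 3 * a ≤ (lev B i).δ / (c + 1) := by
    intro c hc
    have h2 : c + 1 ≤ 200 ^ i := by
      have h3 : c ≤ 200 ^ i - 1 := hc
      have : 0 < 200 ^ i := by positivity
      omega
    have h4 : (c : ℝ) + 1 ≤ (200 : ℝ) ^ i := by exact_mod_cast h2
    have h5 : 3 * (200 : ℝ) ^ i ≤ x := by
      rw [hxB]
      have h6 : (3 : ℝ) * 200 ^ i ≤ (16 : ℝ) ^ 200 ^ i := by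
        have h7 : 3 * 200 ^ i ≤ 16 ^ 200 ^ i := by
          have h8 : 200 ^ i < 4 ^ 200 ^ i := Nat.lt_pow_self (by norm_num)
          have h9 : 3 ≤ 4 ^ 200 ^ i := by
            calc 3 ≤ 4 ^ 1 := by norm_num
              _ ≤ 4 ^ 200 ^ i := Nat.pow_le_pow_right (by norm_num) (Nat.one_le_pow _ _ (by norm_num))
          calc 3 * 200 ^ i ≤ 4 ^ 200 ^ i * 4 ^ 200 ^ i := Nat.mul_le_mul h9 h8.le
            _ = 16 ^ 200 ^ i := by rw [← Nat.mul_pow]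
        exact_mod_cast h7
      exact h6.trans (pow_le_pow_left₀ (by norm_num) hB16 _)
    rw [hδ', ha, le_div_iff₀ (by positivity)]
    have h10 : x ^ 21 = x ^ 20 * x := by rw [← pow_succ]
    rw [h10, mul_inv]
    have h11 : 3 * ((c : ℝ) + 1) ≤ x := by linarith
    calc 3 * ((x ^ 20)⁻¹ * x⁻¹) * ((c : ℝ) + 1) = (x ^ 20)⁻¹ * (x⁻¹ * (3 * ((c : ℝ) + 1))) := by ring
      _ ≤ (x ^ 20)⁻¹ * (x⁻¹ * x) := by gcongr
      _ = (x ^ 20)⁻¹ := by rw [inv_mul_cancel₀ hx0.ne', mul_one]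
  have hstep : ∀ V : Finset E, V ⊆ univ → (∃ X ⊆ V,
      ff g (n / (1 - g)) (lev B (i + 1)) D (univ \ V) X ≤ (lev B (i + 1)).τ ∧
      (x ^ 163)⁻¹ ≤ Th g (univ \ V) (fun G =>
        F.ind (¬ ∃ Y ⊆ X, good (n / (1 - g)) (lev B i) D (univ \ V) G Y))) →
      (x ^ 163)⁻¹ / 2 ≤ Th g (univ \ V) (fun G => F.ind (∃ K ⊆ V,
        Fam (g / (1 - g)) (n / (1 - 2 * g)) a (lev B (i + 1)).κ
          (x ^ 200 * (lev B (i + 1)).δ) D ((univ \ V) \ G) K ∧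
        ∀ U' ⊆ K, U'.card ≤ (lev B i).κ → ¬ Th (n / (1 - g)) ((univ \ V) \ G)
          (fun N => F.ind (¬ D (U' ∪ G ∪ N))) ≤ 3 * a)) := by
    rintro V - ⟨X, hX, h1, h2⟩
    refine one_V hTr hX hg0 (by linarith) hn0.le (by linarith) ha0 (by positivity)
      (by rw [hδ]; positivity) h3a ?_ h1 h2
    rw [hτ, ha]
    exact num1 hx16
  have hM := Th_markov (t := p) (c := (x ^ 163)⁻¹ / 2) hp0.le (by linarith) (univ : Finset E)
    (fun V _ => Th_nonneg hg0.le (by linarith) _ fun G _ => ind_nonneg _) hstep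
  rw [hy]
  refine num2 hx16 hU1 hU2 (hM.trans (hJ1.trans ?_))
  exact add_le_add le_rfl hC1

end Vale.Agent.P331.H133
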